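import Vale.Agent.P359.Link

open Vale.Agent.P359

theorem Vale.Agent.Results.P359.Gap.result :
    ∃ δ : ℝ, 0 < δ ∧ ∃ N0 : ℕ, ∀ N : ℕ, N0 ≤ N →
      ∀ ψ : Tens (3 * (N - 1)) N, IsAntisym ψ →
        δ * reInner ψ (lineCompl (laughlin N) ψ) ≤ reInner ψ (ham ψ) :=
  ⟨3 / 100, by norm_num, main_gap⟩
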